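import Vale.Agent.Lib.P154.ST.Prog

/-! Generated certificates. -/

namespace Vale.Agent.Lib.P154

namespace ST

open Tr in
theorem cc0 : chk TK3c [] (s1 (s0 (s2 (s1 l l) (s1 (s2 l (s2 l l)) (s2 l (s2 l l)))) (s2 (s1 (s2 l l) (s2 l l)) (s1 (s2 (s2 l l) (s0 (s2 l l) (s1 l l))) (s2 (s2 l l) (s0 (s2 l l) (s1 l l)))))) (s0 (s2 (s1 l l) (s1 (s2 l (s2 l l)) (s2 l l))) (s2 (s1 (s2 l l) (s2 l l)) (s1 (s2 l (s1 (s2 l l) l)) (s2 l (s1 l l))))))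
    (Bx.mk 281474980904960 4194304 281475161260032 50331648 281475043819520 67108864 281474976710656 0) = true := by
  decide +kernel

open Tr in
theorem cc1 : chk TK3c [] (s1 (s0 (s2 (s2 l l) (s2 (s1 l l) (s1 (s2 l (s0 l (s2 l l))) (s2 l (s0 l (s2 l l)))))) (s2 (s2 l l) (s2 (s1 l l) (s1 (s0 (s2 l (s1 l l)) (s2 l (s2 l (s1 l l)))) (s0 (s2 l (s1 l l)) (s2 l (s1 l l))))))) (s2 (s0 (s2 l l) (s2 l l)) (s0 (s2 (s1 l l) (s1 (s2 l (s0 l l)) (s0 l l))) (s2 (s1 l l) (s1 (s2 l (s0 l (s2 l l))) (s2 l (s0 l l)))))))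
    (Bx.mk 281474989293568 4194304 281475136094208 25165824 281475043819520 67108864 281474976710656 0) = true := by
  decide +kernel

open Tr in
theorem cc2 : chk TK3c [] (s1 (s2 (s0 (s2 l l) (s2 l l)) (s0 (s2 (s2 l l) (s1 (s2 l l) (s2 l l))) (s1 (s2 l (s0 l l)) (s2 l (s2 l l))))) (s2 (s0 (s2 l l) (s2 l l)) (s0 (s1 (s2 l l) (s2 l l)) (s1 (s2 l l) (s2 l l)))))
    (Bx.mk 281474989293568 4194304 281475186425856 25165824 281475043819520 67108864 281474976710656 0) = true := by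
  decide +kernel

open Tr in
theorem cc3 : chk TK3c [] (s1 (s0 (s2 (s1 l l) (s1 (s2 l l) (s2 l l))) (s1 (s2 l (s1 (s2 l l) l)) (s2 l (s1 l l)))) (s0 (s2 (s1 l l) (s1 (s2 l l) (s1 l l))) (s1 (s2 (s2 l l) (s1 l l)) (s2 (s2 l l) (s1 l l)))))
    (Bx.mk 281474980904960 4194304 281475261923328 50331648 281475043819520 67108864 281474976710656 0) = true := by
  decide +kernel

open Tr in
theorem cc4 : chk TK3c [] (s1 (s1 (s2 (s0 (s2 l l) l) (s0 (s1 (s2 l l) l) (s1 l l))) (s0 (s2 (s2 l l) (s1 l l)) (s2 (s2 l l) (s1 l l)))) (s1 (s0 (s2 (s2 l l) (s1 l l)) (s2 (s1 l l) (s1 l l))) (s0 (s2 (s1 l (s2 l l)) (s1 l l)) (s2 (s1 (s2 l l) (s2 l l)) (s2 l l)))))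
    (Bx.mk 281474989293568 4194304 281475261923328 50331648 281475043819520 67108864 281474976710656 0) = true := by
  decide +kernel

open Tr in
theorem cc5 : chk TK3c [] (s1 (s0 (s2 (s2 l l) (s1 (s2 l (s0 (s2 l (s2 l (s1 l l))) (s2 l (s2 l (s1 l l))))) (s2 l (s0 (s2 l (s1 l l)) (s2 l (s1 (s2 l l) l)))))) (s2 (s2 l l) (s1 (s2 l (s0 (s2 l (s2 l (s1 l l))) (s2 l (s1 l l)))) (s2 l (s0 (s2 l (s1 l l)) (s2 l (s1 l l))))))) (s2 (s2 l (s0 l l)) (s0 (s1 (s2 l (s0 (s1 (s2 l l) l) (s1 (s2 l l) l))) (s2 l (s2 l (s0 l l)))) (s1 (s2 l (s2 l (s1 (s0 l l) l))) (s2 l (s0 (s2 l l) l))))))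
    (Bx.mk 281474997682176 4194304 281475136094208 25165824 281475043819520 67108864 281474976710656 0) = true := by
  decide +kernel

end ST

end Vale.Agent.Lib.P154
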