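import Vale.Agent.Lib.P154.ST.Prog

/-! Generated certificates. -/

namespace Vale.Agent.Lib.P154

namespace ST

open Tr in
theorem cc61 : chk TKBu gsc (s0 (s0 (s1 (s0 (s1 l l) (s1 l l)) (s0 (s1 l l) (s1 l l))) (s1 (s1 (s1 l l) (s1 l l)) (s0 (s1 l l) (s1 l l)))) (s1 (s0 (s1 (s1 l l) (s1 l l)) (s1 (s1 l l) (s1 l l))) (s0 (s1 (s1 l l) (s1 l l)) (s1 (s1 l l) (s1 l l)))))
    (Bx.mk 281474978807808 2097152 281475488415744 25165824 281474976710656 0 281474976710656 0) = true := by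
  decide +kernel

open Tr in
theorem cc62 : chk TKBu gsc (s0 (s1 (s0 (s1 (s1 l l) (s1 l l)) (s1 (s1 l l) (s1 l l))) (s0 (s1 (s1 l l) (s1 l l)) (s1 (s1 l l) (s1 l l)))) (s1 (s0 (s1 (s1 l l) (s1 l l)) (s1 (s1 l l) (s1 l l))) (s0 (s1 (s1 l l) (s1 l l)) (s1 (s1 l l) (s0 l l)))))
    (Bx.mk 281474983002112 2097152 281475438084096 25165824 281474976710656 0 281474976710656 0) = true := by
  decide +kernel

open Tr in
theorem cc63 : chk TKBu gsc (s0 (s1 (s0 (s1 (s1 l l) (s1 l l)) (s1 (s1 l l) (s0 l l))) (s0 (s1 (s1 l l) (s0 l l)) (s1 (s0 l l) (s0 l l)))) (s1 (s0 (s1 (s0 l l) (s0 l l)) (s1 (s0 l l) (s0 l l))) (s0 (s1 (s0 l l) (s0 l l)) (s1 (s0 l (s1 l l)) (s0 l (s1 l l))))))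
    (Bx.mk 281474983002112 2097152 281475488415744 25165824 281474976710656 0 281474976710656 0) = true := by
  decide +kernel

open Tr in
theorem cc64 : chk TKBu gsc (s0 (s1 (s0 (s1 (s1 l l) (s1 l l)) (s1 (s1 l l) (s0 l l))) (s0 (s1 (s0 l l) (s0 l l)) (s1 (s0 l l) (s0 l (s1 l l))))) (s1 (s0 (s1 (s0 l l) (s0 l (s1 l l))) (s1 (s0 (s1 l l) (s1 l l)) (s0 (s1 l l) (s1 l l)))) (s0 (s1 (s0 (s1 l l) (s1 l l)) (s0 (s1 l l) (s1 l l))) (s1 (s0 (s1 l l) (s1 l l)) (s0 (s1 l l) (s1 l l))))))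
    (Bx.mk 281474987196416 2097152 281475438084096 25165824 281474976710656 0 281474976710656 0) = true := by
  decide +kernel

open Tr in
theorem cc65 : chk TKBu gsc (s1 (s0 (s1 (s0 l (s1 l l)) (s0 (s1 l l) (s1 l l))) (s1 (s0 (s1 l l) (s1 l l)) (s0 (s1 l l) (s1 l l)))) (s0 (s1 (s0 (s1 l l) (s1 l l)) (s0 (s1 l l) (s1 l l))) (s1 (s0 (s1 l l) (s1 l l)) (s0 (s1 l l) (s1 l l)))))
    (Bx.mk 281474986147840 1048576 281475488415744 25165824 281474976710656 0 281474976710656 0) = true := by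
  decide +kernel

open Tr in
theorem cc66 : chk TKBu gsc (s1 (s0 (s1 (s0 (s1 l l) (s1 l l)) (s0 (s1 l l) (s1 l l))) (s1 (s0 (s1 l l) (s1 l l)) (s0 (s1 l l) (s1 l l)))) (s0 (s1 (s0 (s1 l l) (s1 l l)) (s0 (s1 l l) (s1 l l))) (s1 (s0 (s1 l l) (s1 l l)) (s0 (s1 l l) (s1 l l)))))
    (Bx.mk 281474988244992 1048576 281475488415744 25165824 281474976710656 0 281474976710656 0) = true := by
  decide +kernel

end ST

end Vale.Agent.Lib.P154
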