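import Vale.Agent.Lib.P154.ST.Prog

/-! Generated certificates. -/

namespace Vale.Agent.Lib.P154

namespace ST

open Tr in
theorem cc67 : chk TKBu gsc (s0 (s1 (s0 (s1 (s0 (s1 l l) (s1 l l)) (s0 (s1 l l) (s1 l l))) (s1 (s0 (s1 l l) (s1 l l)) (s0 (s1 l l) (s1 l l)))) (s0 (s1 (s0 (s1 l l) (s1 l l)) (s0 (s1 l l) (s1 l l))) (s1 (s0 (s1 l l) (s1 l l)) (s0 (s1 l l) (s1 l l))))) (s0 (s1 (s1 (s0 (s1 l l) (s0 l (d 0))) (s0 (s1 l l) (d 0))) (s0 (s1 (s1 l l) (s1 l l)) (d 0))) (d 0)))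
    (Bx.mk 281474991390720 2097152 281475438084096 25165824 281474976710656 0 281474976710656 0) = true := by
  decide +kernel

open Tr in
theorem cc68 : chk TKBu gsc (s0 (s1 (s0 (s1 (s0 (s1 l l) (s1 l l)) (s0 (s1 l l) (s1 l l))) (s1 (s0 (s1 l l) (s1 l l)) (s0 (s1 l l) (s1 l l)))) (s0 (s1 (s0 (s1 l l) (s1 l l)) (s0 (s1 l l) (s1 l l))) (s1 (s0 (s1 l l) (s1 l l)) (s0 (s1 l l) (s1 l l))))) (s1 (s0 (s1 (s0 (s1 l (d 0)) (d 0)) (d 0)) (d 0)) (d 0)))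
    (Bx.mk 281474991390720 2097152 281475488415744 25165824 281474976710656 0 281474976710656 0) = true := by
  decide +kernel

open Tr in
theorem cc69 : chk TKBu gsc (s1 (s0 (s0 (d 0) (d 0)) (s1 (d 0) (d 0))) (s1 (s0 (s0 (d 0) (d 0)) (d 0)) (s0 (d 0) (s0 (d 0) (d 0)))))
    (Bx.mk 281475001876480 8388608 281475463249920 50331648 281474976710656 0 281474976710656 0) = true := by
  decide +kernel

end ST

end Vale.Agent.Lib.P154
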