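import Vale.Agent.Lib.P154.ST.Prog

/-! Generated certificates. -/

namespace Vale.Agent.Lib.P154

namespace ST

open Tr in
theorem cc71 : chk TK3f gsf (s1 (s0 l l) (s1 (s1 (s1 (s0 (d 0) l) (d 0)) (d 0)) (d 0)))
    (Bx.mk 281475043819520 67108864 281475110928384 134217728 281475043819520 67108864 281474976710656 0) = true := by
  decide +kernel

open Tr in
theorem cc72 : chk TK3f gsf (s1 (s0 (s1 l (s0 l l)) (s1 l (s1 l (s0 l (s2 l l))))) (s1 (s1 (s0 (s1 l l) (s0 (s1 l l) (s1 l (s0 l l)))) (s0 (s1 (s1 l (d 0)) (d 0)) (s1 (s0 (s1 l (s2 l l)) (s0 (s2 l l) (s1 l l))) (s0 (s1 (s0 (d 0) l) (d 0)) (s1 (s0 (s2 l l) (s2 l l)) (s0 (d 1) (s1 (s0 (d 1) l) (d 1)))))))) (d 1)))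
    (Bx.mk 281475144482816 33554432 281475110928384 134217728 281475043819520 67108864 281474976710656 0) = true := by
  decide +kernel

open Tr in
theorem cc73 : chk TK3f gsf (s0 (s1 l (s1 l (s1 l l))) (s1 (s0 l l) (s1 (s0 l l) (s0 (s0 l l) (s1 l l)))))
    (Bx.mk 281475194814464 16777216 281475043819520 67108864 281475043819520 67108864 281474976710656 0) = true := by
  decide +kernel

open Tr in
theorem cc74 : chk TK3f gsf (s1 (s1 (s1 (s0 l l) (s0 (s2 l l) (s0 l l))) (s1 (s0 (s1 l (s2 l l)) (s1 (s2 l l) (s0 l l))) (s0 (s1 (s0 l (s2 l l)) (s1 (s2 l l) (d 1))) (s1 (s2 (s0 l l) l) (s0 (s1 l (s1 l (d 1))) (s1 l (s2 l l))))))) (d 1))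
    (Bx.mk 281475186425856 8388608 281475178037248 67108864 281475043819520 67108864 281474976710656 0) = true := by
  decide +kernel

open Tr in
theorem cc75 : chk TK3f gsf (s1 (s1 (s1 (s0 l (s2 l l)) (s0 (s1 l l) (s1 l (s2 l l)))) (s1 (s0 (s1 (s2 l l) (s0 l l)) (s1 (s0 l l) (s0 (s2 l l) (s2 l l)))) (s0 (s1 (s0 (s2 l l) (s1 l l)) (s0 (s2 (s1 l l) l) (s1 (s2 l l) (s2 l l)))) (s1 (s0 (s1 l l) (s1 l l)) (s0 (s1 (s2 l l) (s2 l l)) (s1 (s2 l l) (s0 l l))))))) (s1 (s1 (s1 (s0 (s1 (s0 (s2 l l) (s2 (s2 l l) l)) (d 1)) (s0 (s1 (s2 (s0 l l) l) (s1 (s0 (d 1) l) (d 1))) (s1 (s2 (s0 l l) l) (s1 (s0 l l) (d 1))))) (d 1)) (d 1)) (d 1)))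
    (Bx.mk 281475203203072 8388608 281475178037248 67108864 281475043819520 67108864 281474976710656 0) = true := by
  decide +kernel

open Tr in
theorem cc76 : chk TK3f gsf (s0 (s1 (s0 l l) (s1 (s0 l l) (s0 (s1 l l) (s1 l l)))) (s1 (s0 (s2 l l) (s1 l l)) (s0 (s1 l (s1 l (s0 l l))) (s1 (s0 l l) (s1 l (s0 l l))))))
    (Bx.mk 281475228368896 16777216 281475043819520 67108864 281475043819520 67108864 281474976710656 0) = true := by
  decide +kernel

end ST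

end Vale.Agent.Lib.P154
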