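import Vale.Agent.Lib.P154.ST.Prog

/-! Generated certificates. -/

namespace Vale.Agent.Lib.P154

namespace ST

open Tr in
theorem cc83 : chk TK3f gsf (s0 (s1 (s0 (s1 (s2 l l) (s2 l l)) (s1 (s2 l l) (s2 l l))) (s0 (s1 (s2 l l) (s0 l (s2 l l))) (s1 (s2 l (s2 l l)) (s2 l (s0 l l))))) (s1 (s0 (s1 (s2 l (s2 l l)) (s2 l (s2 l l))) (s1 (s2 l (s2 l l)) (s2 l (s0 l l)))) (s0 (s1 (s2 l (s0 l l)) (s2 l (s0 l l))) (s1 (s2 l (s0 l l)) (s2 l (s0 (s2 l l) (s2 l l)))))))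
    (Bx.mk 281475232563200 4194304 281475182231552 4194304 281475043819520 67108864 281474976710656 0) = true := by
  decide +kernel

open Tr in
theorem cc84 : chk TK3f gsf (s1 (s0 (s1 (s2 l (s0 l l)) (s2 l (s0 l l))) (s1 (s2 l (s0 l l)) (s2 (s2 l l) (s0 l (s2 l l))))) (s1 (s0 (s0 (s1 l (d 1)) (s2 l l)) (s0 (s2 l (s2 l l)) (s2 l (s0 l l)))) (d 1)))
    (Bx.mk 281475230466048 2097152 281475190620160 4194304 281475043819520 67108864 281474976710656 0) = true := by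
  decide +kernel

open Tr in
theorem cc85 : chk TK3f gsf (s1 (s0 (s1 (s2 (s2 l l) (s0 l (s2 l l))) (s2 (s0 l l) (s0 (s2 l l) (s0 l l)))) (s1 (s2 (s2 l l) (s0 (s2 l l) (s2 l l))) (s2 (s0 l l) (s0 (s1 l l) (s1 l l))))) (s0 (s1 (s0 (s2 l (s0 l l)) (s2 l (s1 l l))) (s1 (s2 l (s0 l l)) (d 1))) (s1 (s0 (s2 l (s1 l l)) (s2 l (s1 l (s2 l l)))) (s0 (s2 l (s1 l (s0 (d 1) l))) (s2 l (s1 (s2 l l) (s2 l l)))))))
    (Bx.mk 281475234660352 2097152 281475190620160 4194304 281475043819520 67108864 281474976710656 0) = true := by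
  decide +kernel

open Tr in
theorem cc86 : chk TK3f gsf (s1 (s0 (s1 (s2 l (s0 l l)) (s2 l (s0 l l))) (s1 (s2 l (s0 l l)) (s2 l (s0 l l)))) (s0 (s1 (s2 l (s0 l (s2 l l))) (s2 l (s0 (s2 l l) (s2 l l)))) (s1 (s2 l (s0 (s2 l l) (s2 l l))) (s2 (s2 l l) (s0 (s2 l l) (s1 l l))))))
    (Bx.mk 281475238854656 2097152 281475182231552 4194304 281475043819520 67108864 281474976710656 0) = true := by
  decide +kernel

open Tr in
theorem cc87 : chk TK3f gsf (s1 (s0 (s1 (s2 l (s0 l l)) (s2 l (s0 l (s2 l l)))) (s2 (s0 l l) (s1 (s0 l l) (s0 (s2 l l) l)))) (s0 (s1 (s2 l (s0 (s2 l l) (s2 l l))) (s2 (s2 l l) (s0 (s1 l l) (s1 l l)))) (s1 (s2 l (s0 (s2 l l) (s2 l l))) (s2 (s2 l l) (s0 (s1 l l) (s1 l l))))))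
    (Bx.mk 281475243048960 2097152 281475182231552 4194304 281475043819520 67108864 281474976710656 0) = true := by
  decide +kernel

open Tr in
theorem cc88 : chk TK3f gsf (s0 (s1 (s2 (s0 l l) (s0 (s1 l l) (s1 l l))) (s2 (s0 l l) (s0 (s1 l l) (s1 l (s2 l l))))) (s1 (s2 (s0 l l) (s0 (s1 l l) (s1 l (s2 l l)))) (s2 (s0 l l) (s0 (s2 l (s1 l l)) (s2 l (s1 l l))))))
    (Bx.mk 281475238854656 2097152 281475188523008 2097152 281475043819520 67108864 281474976710656 0) = true := by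
  decide +kernel

end ST

end Vale.Agent.Lib.P154
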