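import Vale.Agent.Lib.P154.ST.Prog

/-! Generated certificates. -/

namespace Vale.Agent.Lib.P154

namespace ST

open Tr in
theorem cc95 : chk TK3f gsf (d 1)
    (Bx.mk 281475240951808 4194304 281475201105920 2097152 281475043819520 67108864 281474976710656 0) = true := by
  decide +kernel

open Tr in
theorem cc96 : chk TK3f gsf (d 1)
    (Bx.mk 281475236757504 8388608 281475207397376 4194304 281475043819520 67108864 281474976710656 0) = true := by
  decide +kernel

open Tr in
theorem cc97 : chk TK3f gsf (d 1)
    (Bx.mk 281475236757504 8388608 281475228368896 16777216 281475043819520 67108864 281474976710656 0) = true := by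
  decide +kernel

end ST

end Vale.Agent.Lib.P154
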