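import Vale.Agent.Lib.P154.ST.Prog

/-! Generated certificates. -/

namespace Vale.Agent.Lib.P154

namespace ST

open Tr in
theorem cc12 : chk TK3c [] (s1 (s0 (s1 (s2 (s1 (s2 l l) (s2 l l)) (s1 l l)) (s2 (s0 (s1 l l) (s1 l l)) (s1 l l))) (s1 (s2 (s1 (s2 l l) (s2 l l)) (s2 l l)) (s2 (s0 (s1 l l) (s2 l l)) (s1 l l)))) (s0 (s1 (s2 (s0 (s1 l l) (s1 l l)) (s1 l l)) (s2 (s0 (s2 (s2 l l) l) (s1 l l)) (s1 l l))) (s1 (s2 (s0 (s1 l l) (s1 l l)) (s1 l l)) (s2 (s0 (s1 l l) (s1 l l)) (s1 l l)))))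
    (Bx.mk 281474997682176 4194304 281475362586624 50331648 281475043819520 67108864 281474976710656 0) = true := by
  decide +kernel

open Tr in
theorem cc13 : chk TK3c [] (s1 (s1 (s0 (s2 (s1 (s2 l l) (s2 l l)) (s2 l l)) (s2 (s1 (s2 l l) (s2 l l)) (s1 l l))) (s0 (s2 (s1 (s2 l l) (s2 l l)) (s1 l l)) (s2 (s1 (s2 l l) (s2 l l)) (s1 l l)))) (s0 (s1 (s2 (s0 (s2 l l) (s2 l l)) (s1 l l)) (s2 (s0 (s2 l l) (s2 l l)) (s1 l l))) (s1 (s2 (s0 (s2 l l) (s2 l l)) (s1 l l)) (s2 (s0 (s2 l l) (s2 l l)) (s1 l l)))))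
    (Bx.mk 281475006070784 4194304 281475362586624 50331648 281475043819520 67108864 281474976710656 0) = true := by
  decide +kernel

open Tr in
theorem cc14 : chk TK3c [] (s0 (s1 (s2 (s0 (s1 l l) (s1 l (s2 l l))) (s0 (s1 (s2 l l) (s2 l l)) (s1 l l))) (s0 (s2 (s1 l l) (s1 (s2 l l) (s2 l l))) (s2 (s1 (s2 l l) (s2 l l)) (s1 l (s2 l l))))) (s1 (s2 (s0 (s1 (s2 l l) (s2 l l)) (s1 (s2 l l) (s2 (s2 l l) l))) (s0 (s1 l l) (s1 l l))) (s0 (s2 (s1 (s2 l l) (s2 l l)) (s1 l (s2 l l))) (s2 (s1 (s2 (s2 l l) l) (s2 (s2 l l) l)) (s1 l l)))))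
    (Bx.mk 281474980904960 4194304 281475463249920 50331648 281475043819520 67108864 281474976710656 0) = true := by
  decide +kernel

open Tr in
theorem cc15 : chk TK3c [] (s1 (s2 (s1 (s0 (s2 (s2 l l) l) (s2 (s2 l l) l)) (s0 (s2 (s2 l l) l) (s2 (s2 l l) l))) (s0 (s1 l l) (s1 l l))) (s0 (s2 (s1 (s2 (s2 l l) l) (s2 (s2 l l) l)) (s1 l l)) (s2 (s1 (s2 (s2 l l) l) (s2 (s2 l l) l)) (s1 l l))))
    (Bx.mk 281474987196416 2097152 281475463249920 50331648 281475043819520 67108864 281474976710656 0) = true := by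
  decide +kernel

open Tr in
theorem cc16 : chk TK3c [] (s1 (s1 (s2 (s0 (s2 (s2 l l) l) (s2 (s2 l l) l)) (s0 l l)) (s2 (s0 (s2 (s2 l l) l) (s2 (s2 l l) l)) (s0 l l))) (s0 (s2 (s1 (s2 (s2 l l) l) (s2 (s2 l l) l)) (s1 l l)) (s2 (s1 (s2 (s2 l l) l) (s2 (s2 l l) l)) (s1 l l))))
    (Bx.mk 281474991390720 2097152 281475463249920 50331648 281475043819520 67108864 281474976710656 0) = true := by
  decide +kernel

open Tr in
theorem cc17 : chk TK3c [] (s0 (s0 (s1 (s0 (s2 (s2 l l) l) (s1 l l)) (s0 (s2 (s2 l l) l) (s1 l l))) (s1 (s0 (s1 l l) (s2 l l)) (s0 (s1 l l) (s2 l l)))) (s0 (s1 (s0 (s2 l l) (s2 l l)) (s0 (s2 l l) (s2 l l))) (s1 (s0 (s2 l l) (s2 l l)) (s0 (s2 l l) (s2 l l)))))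
    (Bx.mk 281475001876480 8388608 281475438084096 25165824 281475010265088 33554432 281474976710656 0) = true := by
  decide +kernel

end ST

end Vale.Agent.Lib.P154
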