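import Vale.Agent.Lib.P154.ST.Prog

/-! Generated certificates. -/

namespace Vale.Agent.Lib.P154

namespace ST

open Tr in
theorem cc26 : chk TKAu gsc (s0 (s1 (s0 (s1 (s1 l l) (s1 l l)) (s1 (s1 l l) (s1 l l))) (s0 (s1 (s1 l l) (s1 l l)) (s1 (s1 l l) (s1 l l)))) (s1 (s0 (s1 (s1 l l) (s1 l l)) (s1 (s1 l l) (s1 l l))) (s0 (s1 (s1 l l) (s1 l l)) (s1 (s1 l l) (s1 l l)))))
    (Bx.mk 281474980904960 4194304 281475337420800 25165824 281474976710656 0 281474976710656 0) = true := by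
  decide +kernel

open Tr in
theorem cc27 : chk TKAu gsc (s0 (s1 (s0 (s1 (s1 l l) (s1 l l)) (s1 (s1 l l) (s1 l l))) (s0 (s1 (s1 l l) (s1 l l)) (s1 (s1 l l) (s0 l l)))) (s1 (s0 (s1 (s1 l l) (s1 l l)) (s1 (s0 l l) (s0 l l))) (s0 (s1 (s0 l l) (s0 l l)) (s1 (s0 l l) (s0 l l)))))
    (Bx.mk 281474980904960 4194304 281475387752448 25165824 281474976710656 0 281474976710656 0) = true := by
  decide +kernel

open Tr in
theorem cc28 : chk TKAu gsc (s0 (s1 (s1 (s0 (s1 l l) (s1 (s0 l l) (s0 l l))) (s0 (s1 l (s0 l l)) (s0 (s1 l l) (s1 l l)))) (s0 (s1 (s0 l (s1 l l)) (s0 l (s1 l l))) (s1 (s0 (s1 l l) (s1 l l)) (s0 (s1 l l) (s1 l l))))) (s1 (s1 (s0 (s1 (s0 l l) (s0 l l)) (s1 (s0 l l) (s0 l l))) (s0 (s0 (s1 l l) (s1 l l)) (s1 (s0 l l) (s0 l l)))) (s0 (s1 (s0 (s1 l l) (s1 l l)) (s0 (s1 l l) (s1 l l))) (s1 (s0 (s1 l l) (s1 l l)) (s0 (s1 l l) (s0 l (d 0)))))))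
    (Bx.mk 281474989293568 4194304 281475337420800 25165824 281474976710656 0 281474976710656 0) = true := by
  decide +kernel

open Tr in
theorem cc29 : chk TKAu gsc (s0 (s1 (s0 (s1 (s0 l (s1 l l)) (s0 l (s1 l l))) (s1 (s0 (s1 l l) (s1 l l)) (s0 (s1 l l) (s1 l l)))) (s0 (s1 (s0 (s1 l l) (s1 l l)) (s0 l (s1 l l))) (s1 (s0 (s1 l l) (s1 l l)) (s0 (s1 l l) (s1 l l))))) (s1 (s0 (s1 (s0 (s1 l l) (s1 l l)) (s0 (s1 l l) (s1 l l))) (s1 (s0 (s1 l l) (s0 l (d 0))) (s0 (s1 l l) (s0 l (d 0))))) (s0 (s1 (s0 (s1 l l) (s1 l l)) (s0 (s1 l l) (s1 l l))) (s0 (s1 (s1 l l) (s1 l l)) (d 0)))))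
    (Bx.mk 281474989293568 4194304 281475387752448 25165824 281474976710656 0 281474976710656 0) = true := by
  decide +kernel

open Tr in
theorem cc30 : chk TKAu gsc (s0 (s0 (s1 (s1 (s1 (d 0) (d 0)) (d 0)) (s1 (d 0) (d 0))) (d 0)) (s1 (d 0) (d 0)))
    (Bx.mk 281475001876480 8388608 281475362586624 50331648 281474976710656 0 281474976710656 0) = true := by
  decide +kernel

open Tr in
theorem cc31 : chk TKAu gsc (s1 (s1 (s0 (s1 (s1 l l) (s0 l l)) (s1 (s0 l l) (s0 l l))) (s0 (s1 (s0 l l) (s0 l l)) (s1 (s0 l l) (s0 l l)))) (s0 (s1 (s0 (s1 l l) (s1 l l)) (s0 (s1 l l) (s1 l l))) (s1 (s0 (s1 l l) (s1 l l)) (s0 (s1 l l) (s1 l l)))))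
    (Bx.mk 281474978807808 2097152 281475463249920 50331648 281474976710656 0 281474976710656 0) = true := by
  decide +kernel

end ST

end Vale.Agent.Lib.P154
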