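import Vale.Agent.Lib.P154.ST.Prog

/-! Generated certificates. -/

namespace Vale.Agent.Lib.P154

namespace ST

open Tr in
theorem cc32 : chk TKAu gsc (s1 (s1 (s0 (s1 (s0 l l) (s0 l l)) (s1 (s0 l l) (s0 l l))) (s0 (s1 (s0 l l) (s0 l l)) (s1 (s0 l l) (s0 l l)))) (s0 (s1 (s0 (s1 l l) (s1 l l)) (s0 (s1 l l) (s1 l l))) (s1 (s1 (s0 l l) (s0 l l)) (s0 (s1 l l) (s1 (s1 l l) (s1 l l))))))
    (Bx.mk 281474983002112 2097152 281475463249920 50331648 281474976710656 0 281474976710656 0) = true := by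
  decide +kernel

open Tr in
theorem cc33 : chk TKAu gsc (s1 (s0 (s1 (s0 l (s1 l l)) (s0 l (s1 l l))) (s1 (s0 (s1 l l) (s1 l l)) (s0 (s1 l l) (s1 l l)))) (s0 (s1 (s0 (s1 l l) (s1 l l)) (s0 (s1 l l) (s1 l l))) (s1 (s0 (s1 l l) (s1 l l)) (s0 (s1 l l) (s1 l l)))))
    (Bx.mk 281474987196416 2097152 281475438084096 25165824 281474976710656 0 281474976710656 0) = true := by
  decide +kernel

open Tr in
theorem cc34 : chk TKAu gsc (s0 (s1 (s1 (s0 (s1 l l) (s1 l l)) (s0 (s1 l l) (s1 l l))) (s0 (s1 (s1 l l) (s1 l l)) (s1 (s1 l l) (s1 l l)))) (s1 (s0 (s1 (s1 l l) (s1 l l)) (s1 (s1 l l) (s1 l l))) (s0 (s1 (s1 l l) (s1 l l)) (s1 (s1 l l) (s1 l l)))))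
    (Bx.mk 281474987196416 2097152 281475488415744 25165824 281474976710656 0 281474976710656 0) = true := by
  decide +kernel

open Tr in
theorem cc35 : chk TKAu gsc (s1 (s1 (s0 (s1 (s0 (s1 l l) (s1 l l)) (s0 (s1 l l) (s1 l l))) (s0 (s1 (s1 l l) (s0 l (d 0))) (d 0))) (s0 (s1 (s0 (s1 l l) (s1 l l)) (s0 (s1 l l) (s1 l l))) (s0 (s0 (s1 l l) (d 0)) (d 0)))) (s0 (s1 (s0 (s1 (s1 l l) (s1 l l)) (s1 (s1 l l) (s1 l l))) (s0 (s1 (s1 l l) (s1 l l)) (s1 (s1 l l) (s0 l l)))) (s1 (s0 (s1 (s1 l (d 0)) (d 0)) (d 0)) (d 0))))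
    (Bx.mk 281474991390720 2097152 281475463249920 50331648 281474976710656 0 281474976710656 0) = true := by
  decide +kernel

open Tr in
theorem cc36 : chk TKAu gsc (s1 (s0 (s0 (d 0) (d 0)) (s1 (d 0) (d 0))) (s0 (s0 (d 0) (d 0)) (s0 (d 0) (d 0))))
    (Bx.mk 281475001876480 8388608 281475463249920 50331648 281474976710656 0 281474976710656 0) = true := by
  decide +kernel

end ST

end Vale.Agent.Lib.P154
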