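import Vale.Agent.Lib.P154.ST.Prog

/-! Generated certificates. -/

namespace Vale.Agent.Lib.P154

namespace ST

open Tr in
theorem cc49 : chk TKBu gsc (s1 (s1 (s0 (s1 (s0 l l) (s0 l l)) (s1 (s0 l l) (s0 l l))) (s0 (s0 (s1 l l) (s1 l l)) (s1 (s0 l l) (s0 l l)))) (s0 (s1 (s0 (s1 l l) (s1 l l)) (s0 (s1 l l) (s1 l l))) (s1 (s0 (s1 l l) (s1 l (s1 l l))) (s0 (s1 l l) (s1 (s1 l l) (s1 l l))))))
    (Bx.mk 281474991390720 2097152 281475287089152 25165824 281474976710656 0 281474976710656 0) = true := by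
  decide +kernel

open Tr in
theorem cc50 : chk TKBu gsc (s0 (s0 (s1 (s1 (s0 (s1 (s0 (s1 l l) (d 0)) (s0 (s1 l l) (d 0))) (d 0)) (s0 (s1 (s0 (s1 l l) (d 0)) (s0 (s1 l l) (d 0))) (d 0))) (s1 (s0 (s1 (s0 (s1 l l) (d 0)) (s0 (s1 l l) (d 0))) (d 0)) (s0 (s1 (s0 (s1 (s0 l (d 0)) (d 0)) (d 0)) (d 0)) (d 0)))) (d 0)) (d 0))
    (Bx.mk 281475001876480 8388608 281475261923328 50331648 281474976710656 0 281474976710656 0) = true := by
  decide +kernel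

open Tr in
theorem cc51 : chk TKBu gsc (s0 (s0 (s1 (s1 (s0 l l) (s0 l l)) (s0 (s1 l l) (s1 l l))) (s1 (s1 (s0 l (s1 l l)) (s0 (s1 l l) (s1 l l))) (s0 (s1 (s1 l l) (s1 l l)) (s1 (s1 l l) (s1 l l))))) (s1 (s0 (s1 (s0 (s1 l l) (s1 l l)) (s0 (s1 l l) (s1 l l))) (s1 (s0 (s1 l l) (s1 l l)) (s0 (s1 l l) (s1 l l)))) (s0 (s1 (s0 (s1 l l) (s1 l l)) (s0 (s1 l l) (s1 l l))) (s1 (s0 (s1 l l) (s1 l l)) (s0 (s1 l l) (s1 l l))))))
    (Bx.mk 281474980904960 4194304 281475337420800 25165824 281474976710656 0 281474976710656 0) = true := by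
  decide +kernel

open Tr in
theorem cc52 : chk TKBu gsc (s1 (s0 (s1 (s0 (s1 l l) (s1 l l)) (s0 (s1 l l) (s1 l l))) (s1 (s0 (s1 l l) (s1 l l)) (s0 (s1 l l) (s1 l l)))) (s0 (s1 (s0 (s1 l l) (s1 l l)) (s0 (s1 l l) (s1 l l))) (s1 (s0 (s1 l l) (s1 l l)) (s0 (s1 l l) (s1 l l)))))
    (Bx.mk 281474987196416 2097152 281475337420800 25165824 281474976710656 0 281474976710656 0) = true := by
  decide +kernel

open Tr in
theorem cc53 : chk TKBu gsc (s1 (s0 (s1 (s0 (s1 l l) (s1 l l)) (s0 (s1 l l) (s1 l l))) (s1 (s0 (s1 (s1 l l) (s1 l l)) (s1 (s1 l l) (s1 l l))) (s0 (s1 (s1 l l) (s1 l l)) (s1 (s1 l l) (s1 l l))))) (s0 (s1 (s0 (s1 l l) (s1 l l)) (s0 (s1 l l) (s1 (s1 l l) (s1 l l)))) (s1 (s0 (s1 (s1 l l) (s1 l l)) (s1 (s1 l l) (s0 l (d 0)))) (s0 (s1 (s1 l l) (s1 l l)) (s0 (s1 l l) (d 0))))))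
    (Bx.mk 281474991390720 2097152 281475337420800 25165824 281474976710656 0 281474976710656 0) = true := by
  decide +kernel

open Tr in
theorem cc54 : chk TKBu gsc (s0 (s0 (s1 (s1 (d 0) (d 0)) (d 0)) (d 0)) (d 0))
    (Bx.mk 281475001876480 8388608 281475337420800 25165824 281474976710656 0 281474976710656 0) = true := by
  decide +kernel

end ST

end Vale.Agent.Lib.P154
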